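import Mathlib

/-!
# P199 (Kurosh's problem for division rings): the case of two quadratic generators

Let `D` be a division ring that is algebraic over its centre `F`.  If `a, b ∈ D` each satisfy a
monic quadratic equation over `F`, then the `F`-subalgebra `F[a, b]` generated by `a` and `b`
is finite-dimensional over `F`.

Proof idea: with `a * a = p * a + q` and `b * b = r * b + s`, the element
`t = a * b + b * a - p * b - r * a` commutes with `a` and `b`; it is algebraic over `F`, so
`F[t]` is finite-dimensional, and `F[a, b]` is contained in `F[t] * span {1, a, b, a * b}`.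
-/

namespace Vale.Agent.Results.P199.QuadraticPair

open Submodule in
/-- General form: in an algebra over a field, two quadratic elements whose `mixed trace`
`a * b + b * a - p b - r a` is integral generate a finite-dimensional subalgebra. -/
theorem finite_adjoin_pair_of_quadratic {F A : Type*} [Field F] [Ring A] [Algebra F A]
    (a b : A) (p q r s : F)
    (ha : a * a = p • a + q • (1 : A)) (hb : b * b = r • b + s • (1 : A))
    (ht : IsIntegral F (a * b + b * a - p • b - r • a)) :
    FiniteDimensional F (Algebra.adjoin F ({a, b} : Set A)) := by
  classical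
  set t : A := a * b + b * a - p • b - r • a with ht_def
  -- `t` commutes with `a` and `b`
  have hta : t * a = a * t := by
    have h1 : t * a = a * b * a + b * (a * a) - p • (b * a) - r • (a * a) := by
      simp only [ht_def, sub_mul, add_mul, smul_mul_assoc, mul_assoc]
    have h2 : a * t = a * a * b + a * b * a - p • (a * b) - r • (a * a) := by
      simp only [ht_def, mul_sub, mul_add, mul_smul_comm, mul_assoc]
    rw [h1, h2, ha]
    simp only [mul_add, add_mul, mul_smul_comm, smul_mul_assoc, mul_one, one_mul, smul_add,
      smul_smul]
    abel
  have htb : t * b = b * t := by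
    have h1 : t * b = a * (b * b) + b * a * b - p • (b * b) - r • (a * b) := by
      simp only [ht_def, sub_mul, add_mul, smul_mul_assoc, mul_assoc]
    have h2 : b * t = b * a * b + b * b * a - p • (b * b) - r • (b * a) := by
      simp only [ht_def, mul_sub, mul_add, mul_smul_comm, mul_assoc]
    rw [h1, h2, hb]
    simp only [mul_add, add_mul, mul_smul_comm, smul_mul_assoc, mul_one, one_mul, smul_add,
      smul_smul]
    abel
  -- the commutative finite-dimensional algebra `T = F[t]`
  set T : Subalgebra F A := Algebra.adjoin F {t} with hT
  have hTfg : (Subalgebra.toSubmodule T).FG := ht.fg_adjoin_singleton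
  have htT : t ∈ T := Algebra.subset_adjoin (Set.mem_singleton t)
  have hTb : ∀ τ ∈ T, τ * b = b * τ := by
    intro τ hτ
    have hle : T ≤ Subalgebra.centralizer F ({b} : Set A) := by
      apply Algebra.adjoin_le
      intro x hx
      rw [Set.mem_singleton_iff] at hx
      subst hx
      rw [SetLike.mem_coe, Subalgebra.mem_centralizer_iff]
      intro g hg
      rw [Set.mem_singleton_iff] at hg
      subst hg
      exact htb.symm
    have := hle hτ
    rw [Subalgebra.mem_centralizer_iff] at this
    exact (this b (Set.mem_singleton b)).symm
  have hTa : ∀ τ ∈ T, τ * a = a * τ := by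
    intro τ hτ
    have hle : T ≤ Subalgebra.centralizer F ({a} : Set A) := by
      apply Algebra.adjoin_le
      intro x hx
      rw [Set.mem_singleton_iff] at hx
      subst hx
      rw [SetLike.mem_coe, Subalgebra.mem_centralizer_iff]
      intro g hg
      rw [Set.mem_singleton_iff] at hg
      subst hg
      exact hta.symm
    have := hle hτ
    rw [Subalgebra.mem_centralizer_iff] at this
    exact (this a (Set.mem_singleton a)).symm
  -- the four-dimensional span
  set N : Submodule F A := span F ({1, a, b, a * b} : Set A) with hN
  have hNfg : N.FG := fg_span (by simp)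
  set M : Submodule F A := Subalgebra.toSubmodule T * N with hM
  have hMfg : M.FG := hTfg.mul hNfg
  have h1N : (1 : A) ∈ N := subset_span (by simp)
  have haN : a ∈ N := subset_span (by simp)
  have hbN : b ∈ N := subset_span (by simp)
  have habN : a * b ∈ N := subset_span (by simp)
  have hNM : N ≤ M := by
    intro v hv
    have : (1 : A) * v ∈ M := mul_mem_mul (Subalgebra.one_mem T) hv
    simpa using this
  have h1M : (1 : A) ∈ M := hNM h1N
  have hTM : ∀ τ ∈ T, ∀ m ∈ M, τ * m ∈ M := by
    intro τ hτ m hm
    refine Submodule.mul_induction_on hm ?_ ?_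
    · intro τ' hτ' v hv
      rw [← mul_assoc]
      exact mul_mem_mul (T.mul_mem hτ hτ') hv
    · intro x y hx hy
      rw [mul_add]
      exact M.add_mem hx hy
  -- left multiplication by `a` preserves `N`
  have haNN : ∀ v ∈ N, a * v ∈ N := by
    intro v hv
    refine span_induction ?_ ?_ ?_ ?_ hv
    · intro x hx
      simp only [Set.mem_insert_iff, Set.mem_singleton_iff] at hx
      rcases hx with rfl | rfl | rfl | rfl
      · simpa using haN
      · rw [ha]
        exact N.add_mem (N.smul_mem _ haN) (N.smul_mem _ h1N)
      · exact habN
      · rw [← mul_assoc, ha, add_mul, smul_mul_assoc, smul_mul_assoc, one_mul]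
        exact N.add_mem (N.smul_mem _ habN) (N.smul_mem _ hbN)
    · simp
    · intro x y _ _ hx hy
      rw [mul_add]
      exact N.add_mem hx hy
    · intro c x _ hx
      rw [mul_smul_comm]
      exact N.smul_mem _ hx
  -- left multiplication by `b` sends `N` into `M`
  have hba : b * a = t - a * b + p • b + r • a := by
    rw [ht_def]
    abel
  have hbNM : ∀ v ∈ N, b * v ∈ M := by
    intro v hv
    refine span_induction ?_ ?_ ?_ ?_ hv
    · intro x hx
      simp only [Set.mem_insert_iff, Set.mem_singleton_iff] at hx
      rcases hx with rfl | rfl | rfl | rfl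
      · simpa using hNM hbN
      · rw [hba]
        have h1 : t ∈ M := by
          have : t * 1 ∈ M := mul_mem_mul htT h1N
          simpa using this
        exact M.add_mem (M.add_mem (M.sub_mem h1 (hNM habN)) (M.smul_mem _ (hNM hbN)))
          (M.smul_mem _ (hNM haN))
      · rw [hb]
        exact M.add_mem (M.smul_mem _ (hNM hbN)) (M.smul_mem _ h1M)
      · have h2 : b * (a * b) = t * b - s • a + (p * r) • b + (p * s) • (1 : A) := by
          rw [← mul_assoc, hba]
          simp only [add_mul, sub_mul, smul_mul_assoc, mul_assoc, hb, mul_add, mul_smul_comm,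
            mul_one, smul_add, smul_smul]
          abel
        rw [h2]
        have h1 : t * b ∈ M := mul_mem_mul htT hbN
        exact M.add_mem (M.add_mem (M.sub_mem h1 (M.smul_mem _ (hNM haN)))
          (M.smul_mem _ (hNM hbN))) (M.smul_mem _ h1M)
    · simp
    · intro x y _ _ hx hy
      rw [mul_add]
      exact M.add_mem hx hy
    · intro c x _ hx
      rw [mul_smul_comm]
      exact M.smul_mem _ hx
  -- left multiplication by `a` and by `b` preserves `M`
  have haM : ∀ m ∈ M, a * m ∈ M := by
    intro m hm
    refine Submodule.mul_induction_on hm ?_ ?_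
    · intro τ hτ v hv
      rw [← mul_assoc, ← hTa τ hτ, mul_assoc]
      exact mul_mem_mul hτ (haNN v hv)
    · intro x y hx hy
      rw [mul_add]
      exact M.add_mem hx hy
  have hbM : ∀ m ∈ M, b * m ∈ M := by
    intro m hm
    refine Submodule.mul_induction_on hm ?_ ?_
    · intro τ hτ v hv
      rw [← mul_assoc, ← hTb τ hτ, mul_assoc]
      exact hTM τ hτ _ (hbNM v hv)
    · intro x y hx hy
      rw [mul_add]
      exact M.add_mem hx hy
  -- hence `F[a, b] * M ⊆ M`, so `F[a, b] ⊆ M`
  have key : ∀ x ∈ Algebra.adjoin F ({a, b} : Set A), ∀ m ∈ M, x * m ∈ M := by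
    intro x hx
    induction hx using Algebra.adjoin_induction with
    | mem x hx =>
      rcases hx with rfl | rfl
      · exact haM
      · exact hbM
    | algebraMap c =>
      intro m hm
      rw [← Algebra.smul_def]
      exact M.smul_mem _ hm
    | add x y _ _ hx hy =>
      intro m hm
      rw [add_mul]
      exact M.add_mem (hx m hm) (hy m hm)
    | mul x y _ _ hx hy =>
      intro m hm
      rw [mul_assoc]
      exact hx _ (hy m hm)
  have hle : Subalgebra.toSubmodule (Algebra.adjoin F ({a, b} : Set A)) ≤ M := by
    intro x hx
    have := key x hx 1 h1M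
    simpa using this
  have : FiniteDimensional F M := Module.Finite.iff_fg.mpr hMfg
  exact Submodule.finiteDimensional_of_le hle

/-- **Kurosh's problem for two quadratic generators.**  Let `D` be a division ring which is
algebraic over its centre `F`.  If `a, b ∈ D` satisfy `a * a = p * a + q` and
`b * b = r * b + s` with `p, q, r, s ∈ F`, then the `F`-subalgebra of `D` generated by `a`
and `b` is finite-dimensional over `F`. -/
theorem result {D : Type*} [DivisionRing D]
    (hD : Algebra.IsAlgebraic (Subring.center D) D) (a b : D)
    (ha : ∃ p q : Subring.center D, a * a = (p : D) * a + (q : D))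
    (hb : ∃ r s : Subring.center D, b * b = (r : D) * b + (s : D)) :
    FiniteDimensional (Subring.center D) (Algebra.adjoin (Subring.center D) ({a, b} : Set D)) := by
  obtain ⟨p, q, ha⟩ := ha
  obtain ⟨r, s, hb⟩ := hb
  refine finite_adjoin_pair_of_quadratic a b p q r s ?_ ?_ ?_
  · rw [ha]
    simp [Subring.smul_def]
  · rw [hb]
    simp [Subring.smul_def]
  · exact Algebra.IsIntegral.isIntegral _

end Vale.Agent.Results.P199.QuadraticPair
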